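import Mathlib

open Matrix Filter
open scoped ComplexOrder ENNReal

namespace Vale.Agent.P372

/-- A density operator. -/
def IsState {n : Type} [Fintype n] (ρ : Matrix n n ℂ) : Prop := ρ.PosSemidef ∧ ρ.trace = 1

/-- A finite convex combination of product states. -/
def Separable {a b : ℕ} (ρ : Matrix (Fin a × Fin b) (Fin a × Fin b) ℂ) : Prop :=
  ∃ (m : ℕ) (p : Fin m → ℝ) (α : Fin m → Matrix (Fin a) (Fin a) ℂ)
    (β : Fin m → Matrix (Fin b) (Fin b) ℂ), (∀ i, 0 ≤ p i) ∧ ∑ i, p i = 1 ∧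
    (∀ i, IsState (α i)) ∧ (∀ i, IsState (β i)) ∧
    ρ = ∑ i, (p i : ℂ) • kroneckerMap (· * ·) (α i) (β i)

/-- The vector `ψ` on `A B E` is a purification of `ρ`. -/
def Purifies {a b e : ℕ} (ψ : Fin a × Fin b × Fin e → ℂ)
    (ρ : Matrix (Fin a × Fin b) (Fin a × Fin b) ℂ) : Prop :=
  ∀ p q, ρ p q = ∑ x, ψ (p.1, p.2, x) * star (ψ (q.1, q.2, x))

/-- The vector `ψ` tensored `n` times with itself, on `A^n B^n E^n`. -/
def copies {a b e : ℕ} (ψ : Fin a × Fin b × Fin e → ℂ) (n : ℕ) :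
    Fin (a ^ n) × Fin (b ^ n) × Fin (e ^ n) → ℂ := fun p =>
  ∏ k, ψ (finFunctionFinEquiv.symm p.1 k, finFunctionFinEquiv.symm p.2.1 k,
    finFunctionFinEquiv.symm p.2.2 k)

/-- Bit strings of length `l`. -/
abbrev Key (l : ℕ) : Type := Fin l → Bool

/-- A measurement with outcomes in the bit strings. -/
def IsPOVM {l a : ℕ} (M : Key l → Matrix (Fin a) (Fin a) ℂ) : Prop :=
  (∀ z, (M z).PosSemidef) ∧ ∑ z, M z = 1

/-- Protocols with finitely many rounds, when Alice holds dimension `a` and Bob dimension `b`: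
either both measure their key register, or one party applies a local instrument with Kraus
operators `K i j`, announces the outcome `i`, and the protocol continues. -/
inductive Prot (l : ℕ) : ℕ → ℕ → Type
  | done {a b : ℕ} (M : Key l → Matrix (Fin a) (Fin a) ℂ) (N : Key l → Matrix (Fin b) (Fin b) ℂ)
      (hM : IsPOVM M) (hN : IsPOVM N) : Prot l a b
  | alice {a b : ℕ} (m r : ℕ) (a' : Fin m → ℕ)
      (K : (i : Fin m) → Fin r → Matrix (Fin (a' i)) (Fin a) ℂ)
      (hK : ∑ i, ∑ j, (K i j).conjTranspose * K i j = 1)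
      (next : (i : Fin m) → Prot l (a' i) b) : Prot l a b
  | bob {a b : ℕ} (m r : ℕ) (b' : Fin m → ℕ)
      (K : (i : Fin m) → Fin r → Matrix (Fin (b' i)) (Fin b) ℂ)
      (hK : ∑ i, ∑ j, (K i j).conjTranspose * K i j = 1)
      (next : (i : Fin m) → Prot l a (b' i)) : Prot l a b

/-- The complete public transcripts of a protocol. -/
def Prot.Tr {l : ℕ} : {a b : ℕ} → Prot l a b → Type
  | _, _, .done _ _ _ _ => Unit
  | _, _, .alice m _ _ _ _ next => Sigma fun i : Fin m => (next i).Tr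
  | _, _, .bob m _ _ _ _ next => Sigma fun i : Fin m => (next i).Tr

theorem Prot.finite_tr {l a b : ℕ} (P : Prot l a b) : Finite P.Tr := by
  induction P with
  | done => exact inferInstanceAs (Finite Unit)
  | alice m r a' K hK next ih => exact inferInstanceAs (Finite (Sigma fun i : Fin m => (next i).Tr))
  | bob m r a' K hK next ih => exact inferInstanceAs (Finite (Sigma fun i : Fin m => (next i).Tr))

noncomputable instance {l a b : ℕ} (P : Prot l a b) : Fintype P.Tr :=
  @Fintype.ofFinite _ P.finite_tr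

noncomputable instance {l a b : ℕ} (P : Prot l a b) : DecidableEq P.Tr := Classical.decEq _

/-- The unnormalised state of the purifying system, given the input state `ω` on `A B E`, the
transcript and the two key values. -/
noncomputable def Prot.blk {l e : ℕ} : {a b : ℕ} → (P : Prot l a b) →
    Matrix (Fin a × Fin b × Fin e) (Fin a × Fin b × Fin e) ℂ → P.Tr → Key l → Key l →
    Matrix (Fin e) (Fin e) ℂ
  | _, _, .done M N _ _, ω, _, z, z' => Matrix.of fun x x' => ∑ p, ∑ q,
      (kroneckerMap (· * ·) (M z) (kroneckerMap (· * ·) (N z') (1 : Matrix (Fin e) (Fin e) ℂ)) * ω)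
        (p, q, x) (p, q, x')
  | _, b, .alice _ _ _ K _ next, ω, t, z, z' => (next t.1).blk
      (∑ j, kroneckerMap (· * ·) (K t.1 j) (1 : Matrix (Fin b × Fin e) (Fin b × Fin e) ℂ) * ω *
        (kroneckerMap (· * ·) (K t.1 j)
          (1 : Matrix (Fin b × Fin e) (Fin b × Fin e) ℂ)).conjTranspose) t.2 z z'
  | a, _, .bob _ _ _ K _ next, ω, t, z, z' => (next t.1).blk
      (∑ j, kroneckerMap (· * ·) (1 : Matrix (Fin a) (Fin a) ℂ)
        (kroneckerMap (· * ·) (K t.1 j) (1 : Matrix (Fin e) (Fin e) ℂ)) * ω *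
        (kroneckerMap (· * ·) (1 : Matrix (Fin a) (Fin a) ℂ)
          (kroneckerMap (· * ·) (K t.1 j) (1 : Matrix (Fin e) (Fin e) ℂ))).conjTranspose) t.2 z z'

/-- The final state on the two key registers, the transcript and the purifying system. -/
noncomputable def Prot.final {l a b e : ℕ} (P : Prot l a b) (ψ : Fin a × Fin b × Fin e → ℂ) :
    Matrix (Key l × Key l × P.Tr × Fin e) (Key l × Key l × P.Tr × Fin e) ℂ :=
  Matrix.of fun u w => if u.1 = w.1 ∧ u.2.1 = w.2.1 ∧ u.2.2.1 = w.2.2.1 then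
    P.blk (vecMulVec ψ (star ψ)) u.2.2.1 u.1 u.2.1 u.2.2.2 w.2.2.2 else 0

/-- The ideal key state with the state `σ` of the eavesdropper. -/
noncomputable def ideal (l : ℕ) {T : Type} (σ : Matrix T T ℂ) :
    Matrix (Key l × Key l × T) (Key l × Key l × T) ℂ :=
  ((2 : ℂ) ^ l)⁻¹ • ∑ z : Key l, kroneckerMap (· * ·) (Matrix.single z z (1 : ℂ))
    (kroneckerMap (· * ·) (Matrix.single z z (1 : ℂ)) σ)

/-- The trace norm: the sum of the square roots of the eigenvalues of `Xᴴ * X`. -/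
noncomputable def traceNorm {n : Type} [Fintype n] [DecidableEq n] (X : Matrix n n ℂ) : ℝ :=
  ∑ i, √(Matrix.IsHermitian.eigenvalues (A := X.conjTranspose * X)
    (Matrix.isHermitian_conjTranspose_mul_self X) i)

/-- The protocol has error `ε` on the input vector `ψ`. -/
def Prot.HasError {l a b e : ℕ} (P : Prot l a b) (ψ : Fin a × Fin b × Fin e → ℂ) (ε : ℝ) : Prop :=
  ∃ σ : Matrix (P.Tr × Fin e) (P.Tr × Fin e) ℂ, IsState σ ∧
    traceNorm (P.final ψ - ideal l σ) ≤ ε

/-- The distillable secret key, computed from a purification `ψ`. -/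
noncomputable def keyRate {a b e : ℕ} (ψ : Fin a × Fin b × Fin e → ℂ) : ℝ≥0∞ :=
  ⨆ (l : ℕ → ℕ) (P : (n : ℕ) → Prot (l n) (a ^ n) (b ^ n)) (ε : ℕ → ℝ)
    (_ : ∀ n, (P n).HasError (copies ψ n) (ε n)) (_ : Tendsto ε atTop (nhds 0)),
    liminf (fun n : ℕ => (l n : ℝ≥0∞) / n) atTop

end Vale.Agent.P372
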