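import Vale.Agent.P372.Three

set_option linter.unusedSectionVars false

open Matrix
open scoped ComplexOrder MatrixOrder Kronecker

namespace Vale.Agent.P372

/-- The completely positive map with Kraus operators `L` is unchanged by transposing its input. -/
def Sym {K A C : Type} [Fintype K] (L : K → Matrix A C ℂ) : Prop :=
  ∀ α α' c d, ∑ κ, star (L κ α c) * L κ α' d = ∑ κ, star (L κ α d) * L κ α' c

/-- Tensor powers of Kraus operators. -/
def tp {K A C : Type} (I : Type) [Fintype I] (L : K → Matrix A C ℂ) (κ : I → K) :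
    Matrix (I → A) (I → C) ℂ := Matrix.of fun α c => ∏ i, L (κ i) (α i) (c i)

theorem Sym.tp {K A C : Type} [Fintype K] {L : K → Matrix A C ℂ} (h : Sym L) (I : Type)
    [Fintype I] [DecidableEq I] : Sym (tp I L) := fun α α' c d => by
  simp only [P372.tp, of_apply, star_prod, ← Finset.prod_mul_distrib]
  rw [← Fintype.prod_sum fun i κ => star (L κ (α i) (c i)) * L κ (α' i) (d i),
    ← Fintype.prod_sum fun i κ => star (L κ (α i) (d i)) * L κ (α' i) (c i)]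
  exact Finset.prod_congr rfl fun i _ => h _ _ _ _

/-- The image of a real vector under a product of two such maps. -/
def Sq {A B : Type} (ρ : Matrix (A × B) (A × B) ℂ) : Prop :=
  ∃ (C D K K' : Type) (_ : Fintype C) (_ : Fintype D) (_ : Fintype K) (_ : Fintype K')
    (L : K → Matrix A C ℂ) (R : K' → Matrix B D ℂ) (ε : C × D → ℂ),
    Sym L ∧ Sym R ∧ star ε = ε ∧
    ∀ p q, ρ p q = ∑ κ : K × K', ((L κ.1 ⊗ₖ R κ.2) *ᵥ ε) p * star (((L κ.1 ⊗ₖ R κ.2) *ᵥ ε) q)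

theorem Sq.comap {A B A' B' : Type} {ρ : Matrix (A × B) (A × B) ℂ} (h : Sq ρ) (f : A' → A)
    (g : B' → B) : Sq (Matrix.of fun p q : A' × B' => ρ (f p.1, g p.2) (f q.1, g q.2)) := by
  obtain ⟨C, D, K, K', _, _, _, _, L, R, ε, h1, h2, h3, h4⟩ := h
  exact ⟨C, D, K, K', _, _, _, _, fun κ => (L κ).submatrix f id, fun κ => (R κ).submatrix g id, ε,
    fun α α' => h1 (f α) (f α'), fun α α' => h2 (g α) (g α'), h3, fun p q => h4 _ _⟩

theorem Sq.pow {A B : Type} {ρ : Matrix (A × B) (A × B) ℂ} (h : Sq ρ) (I : Type) [Fintype I]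
    [DecidableEq I] :
    Sq (Matrix.of fun p q : (I → A) × (I → B) => ∏ i, ρ (p.1 i, p.2 i) (q.1 i, q.2 i)) := by
  obtain ⟨C, D, K, K', _, _, _, _, L, R, ε, h1, h2, h3, h4⟩ := h
  refine ⟨I → C, I → D, I → K, I → K', inferInstance, inferInstance, inferInstance, inferInstance,
    tp I L, tp I R, fun x => ∏ i, ε (x.1 i, x.2 i), h1.tp I, h2.tp I, ?_, fun p q => ?_⟩
  · funext x
    simp only [Pi.star_apply, star_prod]
    exact Finset.prod_congr rfl fun i _ => congrFun h3 _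
  · have e : ∀ (κ : (I → K) × (I → K')) (p : (I → A) × (I → B)),
        ((tp I L κ.1 ⊗ₖ tp I R κ.2) *ᵥ fun x => ∏ i, ε (x.1 i, x.2 i)) p =
        ∏ i, ((L (κ.1 i) ⊗ₖ R (κ.2 i)) *ᵥ ε) (p.1 i, p.2 i) := fun κ p => by
      simp only [mulVec, dotProduct, kroneckerMap_apply, tp, of_apply, ← Finset.prod_mul_distrib]
      rw [Fintype.prod_sum]
      exact Fintype.sum_equiv (Equiv.arrowProdEquivProdArrow I (fun _ => C) fun _ => D).symm _ _
        fun x => rfl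
    simp only [of_apply, h4, e, star_prod, ← Finset.prod_mul_distrib]
    rw [Fintype.prod_sum]
    exact Fintype.sum_equiv (Equiv.arrowProdEquivProdArrow I (fun _ => K) fun _ => K') _ _
      fun x => rfl

variable {A B E : Type} [Fintype A] [DecidableEq A] [Fintype B] [DecidableEq B] [Fintype E]
  [DecidableEq E]

theorem Sym.adj {K A C : Type} [Fintype K] [Fintype A] {L : K → Matrix A C ℂ} (h : Sym L)
    (M : Matrix A A ℂ) : (∑ κ, (L κ)ᴴ * M * L κ)ᵀ = ∑ κ, (L κ)ᴴ * M * L κ := by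
  have e : ∀ c d, (∑ κ, (L κ)ᴴ * M * L κ) c d =
      ∑ α', ∑ α, M α α' * ∑ κ, star (L κ α c) * L κ α' d := fun c d => by
    simp only [Matrix.sum_apply, mul_apply, conjTranspose_apply, Finset.sum_mul, Finset.mul_sum]
    rw [Finset.sum_comm]
    refine Finset.sum_congr rfl fun α' _ => ?_
    rw [Finset.sum_comm]
    exact Finset.sum_congr rfl fun α _ => Finset.sum_congr rfl fun κ _ => by ring
  ext c d
  rw [transpose_apply, e, e]
  simp only [h _ _ c d]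

theorem Sym.prod {K K' A B C D : Type} [Fintype K] [Fintype K'] {L : K → Matrix A C ℂ}
    {R : K' → Matrix B D ℂ} (h1 : Sym L) (h2 : Sym R) :
    Sym fun κ : K × K' => L κ.1 ⊗ₖ R κ.2 := fun α α' c d => by
  have e : ∀ c d : C × D, ∑ κ : K × K', star ((L κ.1 ⊗ₖ R κ.2) α c) * (L κ.1 ⊗ₖ R κ.2) α' d =
      (∑ κ, star (L κ α.1 c.1) * L κ α'.1 d.1) * ∑ κ, star (R κ α.2 c.2) * R κ α'.2 d.2 :=
    fun c d => by
      rw [Finset.sum_mul_sum, Fintype.sum_prod_type]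
      refine Finset.sum_congr rfl fun _ _ => Finset.sum_congr rfl fun _ _ => ?_
      simp only [kroneckerMap_apply, star_mul']
      ring
  rw [e, e, h1, h2]

theorem key {ρ : Matrix (A × B) (A × B) ℂ} (h : Sq ρ) {S : Matrix (A × B) E ℂ} (hS : S * Sᴴ = ρ)
    {M0 M1 : Matrix A A ℂ} {N0 N1 : Matrix B B ℂ} (m0 : M0.PosSemidef) (m1 : M1.PosSemidef)
    (n0 : N0.PosSemidef) (n1 : N1.PosSemidef) : ∃ J : Matrix E E ℂ, Jᴴ * J = 1 ∧
      (Sᴴ * (M0 ⊗ₖ N0) * S).trace.re + (Sᴴ * (M1 ⊗ₖ N1) * S).trace.re -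
        (Sᴴ * (M1 ⊗ₖ N0) * S).trace.re - (Sᴴ * (M0 ⊗ₖ N1) * S).trace.re ≤
      (J * (Sᴴ * (M0 ⊗ₖ N0) * S - Sᴴ * (M1 ⊗ₖ N1) * S)).trace.re := by
  classical
  obtain ⟨C, D, K, K', _, _, _, _, L, R, ε, h1, h2, h3, h4⟩ := h
  obtain ⟨W, J, hJ, hW, hle⟩ := overlap (m0.kronecker n0) (m1.kronecker n1) S
  refine ⟨J, hJ, le_trans ?_ hle⟩
  let Ψ : Matrix (A × B) (A × B) ℂ → Matrix (C × D) (C × D) ℂ := fun X =>
    ∑ κ : K × K', (L κ.1 ⊗ₖ R κ.2)ᴴ * X * (L κ.1 ⊗ₖ R κ.2)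
  have dot : ∀ X ξ η, star ξ ⬝ᵥ Ψ X *ᵥ η =
      ∑ κ : K × K', star ((L κ.1 ⊗ₖ R κ.2) *ᵥ ξ) ⬝ᵥ X *ᵥ ((L κ.1 ⊗ₖ R κ.2) *ᵥ η) := fun X ξ η => by
    simp only [Ψ, sum_mulVec, dotProduct_sum]
    refine Finset.sum_congr rfl fun κ _ => ?_
    rw [star_mulVec, ← dotProduct_mulVec, mulVec_mulVec, mulVec_mulVec]
  have tr : ∀ X, (Sᴴ * X * S).trace = star ε ⬝ᵥ Ψ X *ᵥ ε := fun X => by
    have e : ρ = ∑ κ : K × K', vecMulVec ((L κ.1 ⊗ₖ R κ.2) *ᵥ ε)
        (star ((L κ.1 ⊗ₖ R κ.2) *ᵥ ε)) := by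
      ext p q
      simp only [h4, Matrix.sum_apply, vecMulVec_apply, Pi.star_apply]
    rw [trace_mul_cycle, hS, dot, trace_mul_comm, e, Matrix.mul_sum, trace_sum]
    refine Finset.sum_congr rfl fun κ _ => ?_
    rw [mul_vecMulVec, trace_vecMulVec, dotProduct_comm]
  have pr : ∀ M N, Ψ (M ⊗ₖ N) = (∑ κ, (L κ)ᴴ * M * L κ) ⊗ₖ ∑ κ, (R κ)ᴴ * N * R κ := fun M N => by
    simp only [Ψ, conjTranspose_kronecker, ← mul_kronecker_mul, Fintype.sum_prod_type]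
    ext p q
    simp only [Matrix.sum_apply, kroneckerMap_apply, Finset.sum_mul_sum]
  have pl : ∀ {M : Matrix A A ℂ}, M.PosSemidef → (∑ κ, (L κ)ᴴ * M * L κ).PosSemidef := fun hM =>
    posSemidef_sum _ fun κ _ => hM.conjTranspose_mul_mul_same _
  have pr' : ∀ {M : Matrix B B ℂ}, M.PosSemidef → (∑ κ, (R κ)ᴴ * M * R κ).PosSemidef := fun hM =>
    posSemidef_sum _ fun κ _ => hM.conjTranspose_mul_mul_same _
  have := swap (Y := Ψ W) ((h1.prod h2).adj W) (pl m0) (pl m1) (h1.adj _) (h1.adj _) (pr' n0)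
    (pr' n1) (fun ξ η => by
      rw [← pr, ← pr, qf, qf, dot, dot, dot, Complex.re_sum, Complex.re_sum,
        ← Finset.sum_add_distrib]
      refine le_trans ?_ (Finset.sum_le_sum fun κ _ => hW _ _)
      rw [← Finset.mul_sum]
      exact mul_le_mul_of_nonneg_left (norm_sum_le _ _) zero_le_two) h3
  rw [← pr, ← pr, qf, qf, ← tr, ← tr] at this
  have h5 := Complex.re_le_norm (ε ⬝ᵥ Ψ W *ᵥ ε)
  rw [tr W, h3]
  linarith

end Vale.Agent.P372
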