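import Vale.Agent.P372.Defs
import Vale.Agent.P358.Basic

set_option linter.unusedSectionVars false

open Matrix
open scoped ComplexOrder MatrixOrder

namespace Vale.Agent.P372
open Vale.Agent.P358

variable {ι : Type} [Fintype ι] [DecidableEq ι]

/-- The real quadratic form of a matrix. -/
noncomputable def qf (H : Matrix ι ι ℂ) (v : ι → ℂ) : ℝ := (star v ⬝ᵥ H *ᵥ v).re

theorem qf_nonneg {H : Matrix ι ι ℂ} (h : H.PosSemidef) (v : ι → ℂ) : 0 ≤ qf H v :=
  (Complex.nonneg_iff.1 (h.dotProduct_mulVec_nonneg v)).1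

theorem star_dot_self (v : ι → ℂ) : star v ⬝ᵥ v = ((∑ i, ‖v i‖ ^ 2 : ℝ) : ℂ) := by
  simp only [dotProduct, Pi.star_apply, Complex.ofReal_sum]
  refine Finset.sum_congr rfl fun i _ => ?_
  rw [mul_comm, Complex.star_def, Complex.mul_conj, Complex.normSq_eq_norm_sq]

theorem norm_dot_le (a b : ι → ℂ) :
    ‖star a ⬝ᵥ b‖ ≤ √(star a ⬝ᵥ a).re * √(star b ⬝ᵥ b).re := by
  rw [star_dot_self, star_dot_self, Complex.ofReal_re, Complex.ofReal_re]
  refine le_trans ?_ (Real.sum_mul_le_sqrt_mul_sqrt _ _ _)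
  refine (norm_sum_le _ _).trans (le_of_eq (Finset.sum_congr rfl fun i _ => ?_))
  simp

theorem two_norm_dot_le (a b : ι → ℂ) :
    2 * ‖star a ⬝ᵥ b‖ ≤ (star a ⬝ᵥ a).re + (star b ⬝ᵥ b).re := by
  have h := norm_dot_le a b
  have ha : 0 ≤ (star a ⬝ᵥ a).re := by rw [star_dot_self, Complex.ofReal_re]; positivity
  have hb : 0 ≤ (star b ⬝ᵥ b).re := by rw [star_dot_self, Complex.ofReal_re]; positivity
  nlinarith [sq_nonneg (√(star a ⬝ᵥ a).re - √(star b ⬝ᵥ b).re), Real.sq_sqrt ha, Real.sq_sqrt hb]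

theorem dg_mul (d e : ι → ℝ) : dg d * dg e = dg fun i => d i * e i := by
  simp [dg, diagonal_mul_diagonal]

theorem conj_mul {U : Matrix ι ι ℂ} (hU : Uᴴ * U = 1) (d e : ι → ℝ) :
    U * dg d * Uᴴ * (U * dg e * Uᴴ) = U * dg (fun i => d i * e i) * Uᴴ := by
  rw [← dg_mul]
  calc U * dg d * Uᴴ * (U * dg e * Uᴴ) = U * dg d * (Uᴴ * U) * dg e * Uᴴ := by
        simp only [Matrix.mul_assoc]
    _ = _ := by rw [hU, Matrix.mul_one, Matrix.mul_assoc U (dg d)]

theorem conj_psd (U : Matrix ι ι ℂ) {d : ι → ℝ} (h : ∀ i, 0 ≤ d i) :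
    (U * dg d * Uᴴ).PosSemidef := (dg_psd h).mul_mul_conjTranspose_same U

theorem holder (X J : Matrix ι ι ℂ) (hJ : Jᴴ * J = 1) : (J * X).trace.re ≤ traceNorm X := by
  obtain ⟨U, d, h1, h2, h3, hd⟩ := specP (posSemidef_conjTranspose_mul_self X)
  have e : traceNorm X = tf Real.sqrt (Xᴴ * X) := by
    rw [tf, dif_pos (isHermitian_conjTranspose_mul_self X), traceNorm]
  rw [e, h3, tf_eq _ h1]
  have e2 : (J * X).trace = (Uᴴ * (J * X * U)).trace := by
    rw [trace_mul_comm Uᴴ, Matrix.mul_assoc _ U, h2, Matrix.mul_one]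
  have e3 : (J * X * U)ᴴ * (J * X * U) = dg d := by
    calc (J * X * U)ᴴ * (J * X * U) = Uᴴ * (Xᴴ * (Jᴴ * J) * X) * U := by
          simp only [conjTranspose_mul, Matrix.mul_assoc]
      _ = (Uᴴ * U) * dg d * (Uᴴ * U) := by
          rw [hJ, Matrix.mul_one, h3]
          simp only [Matrix.mul_assoc]
      _ = dg d := by rw [h1, Matrix.one_mul, Matrix.mul_one]
  rw [e2, trace, Complex.re_sum]
  refine Finset.sum_le_sum fun i _ => ?_
  have h := norm_dot_le (fun k => U k i) (fun k => (J * X * U) k i)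
  have a1 : star (fun k => U k i) ⬝ᵥ (fun k => U k i) = 1 := by
    have := congrFun (congrFun h1 i) i
    rw [one_apply_eq] at this
    exact this
  have a2 : star (fun k => (J * X * U) k i) ⬝ᵥ (fun k => (J * X * U) k i) = d i := by
    have := congrFun (congrFun e3 i) i
    rw [dg, diagonal_apply_eq] at this
    exact this
  rw [a1, a2, Complex.one_re, Real.sqrt_one, one_mul, Complex.ofReal_re] at h
  exact (Complex.re_le_norm _).trans h

theorem trace_mul_nonneg {A B : Matrix ι ι ℂ} (hA : A.PosSemidef) (hB : B.PosSemidef) :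
    0 ≤ (A * B).trace.re := by
  obtain ⟨C, rfl⟩ := CStarAlgebra.nonneg_iff_eq_star_mul_self.1 hA.nonneg
  rw [star_eq_conjTranspose, Matrix.mul_assoc, trace_mul_comm]
  exact (Complex.nonneg_iff.1 (hB.mul_mul_conjTranspose_same C).trace_nonneg).1

theorem root_pair {G : Matrix ι ι ℂ} (h : G.PosSemidef) : ∃ r s : Matrix ι ι ℂ,
    r.PosSemidef ∧ sᴴ = s ∧ r * r = G ∧ G * s = r ∧ s * G = r ∧ s * s * G * (s * s) = s * s := by
  obtain ⟨U, d, h1, -, rfl, hd⟩ := specP h
  have k : ∀ i, d i * (√(d i))⁻¹ = √(d i) := fun i => by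
    rw [← div_eq_mul_inv, Real.div_sqrt]
  refine ⟨U * dg (fun i => √(d i)) * Uᴴ, U * dg (fun i => (√(d i))⁻¹) * Uᴴ,
    conj_psd U fun i => Real.sqrt_nonneg _, conj_herm U _, ?_, ?_, ?_, ?_⟩
  · rw [conj_mul h1]
    simp only [Real.mul_self_sqrt (hd _)]
  · rw [conj_mul h1]
    simp only [k]
  · rw [conj_mul h1]
    simp only [mul_comm _ (d _), k]
  · simp only [conj_mul h1]
    congr 3
    funext i
    rcases eq_or_ne (√(d i)) 0 with h0 | h0
    · simp [h0]
    · have := Real.mul_self_sqrt (hd i)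
      field_simp
      linarith

theorem stormer {r0 r1 : Matrix ι ι ℂ} (h0 : r0.PosSemidef) (h1 : r1.PosSemidef) :
    ∃ J : Matrix ι ι ℂ, Jᴴ * J = 1 ∧ (r0 * r0).trace.re + (r1 * r1).trace.re -
      2 * (r0 * r1).trace.re ≤ (J * (r0 * r0 - r1 * r1)).trace.re := by
  obtain ⟨U, d, u1, u2, e⟩ := spec (h0.1.sub h1.1)
  let sg : ι → ℝ := fun i => if 0 ≤ d i then 1 else -1
  have hP := conj_psd U (d := fun i => max (d i) 0) fun i => le_max_right _ _
  have hM := conj_psd U (d := fun i => max (-d i) 0) fun i => le_max_right _ _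
  set P := U * dg (fun i => max (d i) 0) * Uᴴ with hPd
  set M := U * dg (fun i => max (-d i) 0) * Uᴴ with hMd
  set J := U * dg sg * Uᴴ with hJ
  have a1 : r0 - r1 = P - M := by
    rw [e, hPd, hMd, ← Matrix.sub_mul, ← Matrix.mul_sub, ← dg_sub]
    simp only [max_zero_sub_max_neg_zero_eq_self]
  have hs : ∀ i, sg i * d i = max (d i) 0 + max (-d i) 0 := fun i => by
    simp only [sg]
    split_ifs with h
    · rw [max_eq_left h, max_eq_right (by linarith)]; ring
    · rw [max_eq_right (by linarith), max_eq_left (by linarith)]; ring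
  have a2 : J * (r0 - r1) = P + M := by
    rw [e, hJ, conj_mul u1, hPd, hMd, ← Matrix.add_mul, ← Matrix.mul_add, ← dg_add]
    simp only [hs]
  have a3 : (r0 - r1) * J = P + M := by
    rw [e, hJ, conj_mul u1, hPd, hMd, ← Matrix.add_mul, ← Matrix.mul_add, ← dg_add]
    simp only [mul_comm (d _), hs]
  refine ⟨J, ?_, ?_⟩
  · rw [(conj_herm U sg).eq, hJ, conj_mul u1]
    have : (fun i => sg i * sg i) = fun _ => (1 : ℝ) := by
      funext i
      simp only [sg]
      split_ifs <;> norm_num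
    rw [this, dg_const, Complex.ofReal_one, one_smul, Matrix.mul_one, u2]
  · have b1 : (J * (r0 * r0 - r1 * r1)).trace = ((P + M) * r0).trace + ((P + M) * r1).trace := by
      have : r0 * r0 - r1 * r1 = (r0 - r1) * r0 + r1 * (r0 - r1) := by noncomm_ring
      rw [this, Matrix.mul_add, trace_add, ← Matrix.mul_assoc, a2, ← Matrix.mul_assoc,
        trace_mul_cycle, a3]
    have b2 : (r0 * r0).trace + (r1 * r1).trace - 2 * (r0 * r1).trace =
        ((P - M) * r0).trace - ((P - M) * r1).trace := by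
      rw [← a1, Matrix.sub_mul, Matrix.sub_mul, trace_sub, trace_sub, trace_mul_comm r1 r0]
      ring
    have b3 := congrArg Complex.re b2
    simp only [Complex.sub_re, Complex.add_re, Matrix.sub_mul, trace_sub, Complex.mul_re,
      Complex.re_ofNat, Complex.im_ofNat, zero_mul, sub_zero] at b3
    rw [b1, b3]
    simp only [Matrix.add_mul, trace_add, Complex.add_re]
    linarith [trace_mul_nonneg hP h1, trace_mul_nonneg hM h0]

variable {P : Type} [Fintype P] [DecidableEq P]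

theorem contr {H : Matrix P P ℂ} (hH : H.PosSemidef) (S : Matrix P ι ℂ) {s : Matrix ι ι ℂ}
    (hs : sᴴ = s) (h : s * s * (Sᴴ * H * S) * (s * s) = s * s) (ξ : P → ℂ) :
    (star ((H * S * s)ᴴ *ᵥ ξ) ⬝ᵥ (H * S * s)ᴴ *ᵥ ξ).re ≤ qf H ξ := by
  have h1 := hH.conjTranspose_mul_mul_same (1 - S * s * s * Sᴴ * H)
  have e : (1 - S * s * s * Sᴴ * H)ᴴ * H * (1 - S * s * s * Sᴴ * H) =
      H - H * S * s * (H * S * s)ᴴ := by
    have e2 : H * S * (s * s * (Sᴴ * H * S) * (s * s)) * Sᴴ * H = H * S * (s * s) * Sᴴ * H := by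
      rw [h]
    simp only [conjTranspose_sub, conjTranspose_mul, conjTranspose_one, hs, hH.1.eq,
      conjTranspose_conjTranspose, Matrix.sub_mul, Matrix.mul_sub, Matrix.one_mul, Matrix.mul_one,
      Matrix.mul_assoc] at e2 ⊢
    rw [e2, sub_self, sub_zero]
  have h2 := qf_nonneg (e ▸ h1) ξ
  rw [qf, sub_mulVec, dotProduct_sub, Complex.sub_re, ← mulVec_mulVec, dotProduct_mulVec _ (H * S * s),
    ← conjTranspose_conjTranspose (H * S * s), ← star_mulVec, conjTranspose_conjTranspose] at h2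
  exact sub_nonneg.1 h2

theorem overlap {H0 H1 : Matrix P P ℂ} (h0 : H0.PosSemidef) (h1 : H1.PosSemidef)
    (S : Matrix P ι ℂ) : ∃ (W : Matrix P P ℂ) (J : Matrix ι ι ℂ), Jᴴ * J = 1 ∧
      (∀ ξ η, 2 * ‖star ξ ⬝ᵥ W *ᵥ η‖ ≤ qf H0 ξ + qf H1 η) ∧
      (Sᴴ * H0 * S).trace.re + (Sᴴ * H1 * S).trace.re - 2 * (Sᴴ * W * S).trace.re ≤
        (J * (Sᴴ * H0 * S - Sᴴ * H1 * S)).trace.re := by
  obtain ⟨r0, s0, a1, a2, a3, a4, -, a6⟩ := root_pair (h0.conjTranspose_mul_mul_same S)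
  obtain ⟨r1, s1, b1, b2, b3, -, b5, b6⟩ := root_pair (h1.conjTranspose_mul_mul_same S)
  obtain ⟨J, hJ, h⟩ := stormer a1 b1
  refine ⟨H0 * S * s0 * (H1 * S * s1)ᴴ, J, hJ, fun ξ η => ?_, ?_⟩
  · refine le_trans ?_ (add_le_add (contr h0 S a2 a6 ξ) (contr h1 S b2 b6 η))
    rw [← mulVec_mulVec, dotProduct_mulVec _ (H0 * S * s0),
      ← conjTranspose_conjTranspose (H0 * S * s0), ← star_mulVec, conjTranspose_conjTranspose]
    exact two_norm_dot_le _ _
  · have e : Sᴴ * (H0 * S * s0 * (H1 * S * s1)ᴴ) * S = r0 * r1 := by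
      rw [← a4, ← b5]
      simp only [conjTranspose_mul, b2, h1.1.eq, Matrix.mul_assoc]
    rwa [e, ← a3, ← b3]

end Vale.Agent.P372
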