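import Vale.Agent.P372.Key

set_option linter.unusedSectionVars false

open Matrix Filter
open scoped ComplexOrder MatrixOrder Kronecker ENNReal

namespace Vale.Agent.P372

/-- Trace over the first two factors. -/
def ptr {a b e : ℕ} (X : Matrix (Fin a × Fin b × Fin e) (Fin a × Fin b × Fin e) ℂ) :
    Matrix (Fin e) (Fin e) ℂ := Matrix.of fun x x' => ∑ p, ∑ q, X (p, q, x) (p, q, x')

theorem ptr_comm {a b a' b' e : ℕ}
    (X : Matrix (Fin a' × Fin b' × Fin e) (Fin a × Fin b × Fin e) ℂ)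
    (K : Matrix (Fin a) (Fin a') ℂ) (R : Matrix (Fin b) (Fin b') ℂ) :
    ptr (X * (K ⊗ₖ (R ⊗ₖ (1 : Matrix (Fin e) (Fin e) ℂ)))) =
      ptr ((K ⊗ₖ (R ⊗ₖ (1 : Matrix (Fin e) (Fin e) ℂ))) * X) := by
  ext x x'
  simp only [ptr, of_apply, mul_apply, Fintype.sum_prod_type, kroneckerMap_apply, one_apply,
    mul_ite, mul_one, mul_zero, ite_mul, zero_mul, Finset.sum_ite_eq, Finset.sum_ite_eq',
    Finset.mem_univ, if_true]
  have e : ∀ f : Fin a' → Fin b' → Fin a → Fin b → ℂ,
      ∑ i, ∑ j, ∑ k, ∑ m, f i j k m = ∑ k, ∑ m, ∑ i, ∑ j, f i j k m := fun f => by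
    have := Finset.sum_comm (s := Finset.univ) (t := Finset.univ)
      (f := fun (x : Fin a' × Fin b') (y : Fin a × Fin b) => f x.1 x.2 y.1 y.2)
    simpa only [Fintype.sum_prod_type] using this
  rw [e]
  simp only [mul_comm]

theorem ptr_sum {a b e : ℕ} {I : Type} [Fintype I]
    (X : I → Matrix (Fin a × Fin b × Fin e) (Fin a × Fin b × Fin e) ℂ) :
    ptr (∑ i, X i) = ∑ i, ptr (X i) := by
  ext x x'
  simp only [ptr, of_apply, Matrix.sum_apply]
  rw [Finset.sum_comm (γ := I)]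
  exact Finset.sum_congr rfl fun _ _ => Finset.sum_comm

theorem sum_kron {I A B : Type} [Fintype I] (X : I → Matrix A A ℂ) (Y : Matrix B B ℂ) :
    (∑ i, X i) ⊗ₖ Y = ∑ i, X i ⊗ₖ Y := by
  ext p q
  simp only [Matrix.sum_apply, kroneckerMap_apply, Finset.sum_mul]

theorem kron_sum {I A B : Type} [Fintype I] (X : Matrix A A ℂ) (Y : I → Matrix B B ℂ) :
    X ⊗ₖ (∑ i, Y i) = ∑ i, X ⊗ₖ Y i := by
  ext p q
  simp only [Matrix.sum_apply, kroneckerMap_apply, Finset.mul_sum]

theorem blk_form {l a b : ℕ} (P : Prot l a b) (t : P.Tr) :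
    ∃ (M : Key l → Matrix (Fin a) (Fin a) ℂ) (N : Key l → Matrix (Fin b) (Fin b) ℂ),
      (∀ z, (M z).PosSemidef) ∧ (∀ z, (N z).PosSemidef) ∧
      ∀ (e : ℕ) (ω : Matrix (Fin a × Fin b × Fin e) (Fin a × Fin b × Fin e) ℂ) (z z' : Key l),
        P.blk ω t z z' = ptr ((M z ⊗ₖ (N z' ⊗ₖ (1 : Matrix (Fin e) (Fin e) ℂ))) * ω) := by
  induction P with
  | done M N hM hN => exact ⟨M, N, hM.1, hN.1, fun _ _ _ _ => rfl⟩
  | @alice a b m r a' K hK next ih =>
    obtain ⟨M, N, hM, hN, h⟩ := ih t.1 t.2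
    refine ⟨fun z => ∑ j, (K t.1 j)ᴴ * M z * K t.1 j, N, fun z => posSemidef_sum _ fun j _ =>
      (hM z).conjTranspose_mul_mul_same _, hN, fun e ω z z' => ?_⟩
    rw [Prot.blk, h, Matrix.mul_sum, ptr_sum, sum_kron, Matrix.sum_mul, ptr_sum]
    refine Finset.sum_congr rfl fun j _ => ?_
    rw [← Matrix.mul_assoc, ← one_kronecker_one, conjTranspose_kronecker, conjTranspose_kronecker,
      conjTranspose_one, conjTranspose_one, ptr_comm, ← Matrix.mul_assoc, ← Matrix.mul_assoc]
    simp only [← mul_kronecker_mul, Matrix.one_mul, Matrix.mul_one]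
  | @bob a b m r a' K hK next ih =>
    obtain ⟨M, N, hM, hN, h⟩ := ih t.1 t.2
    refine ⟨M, fun z => ∑ j, (K t.1 j)ᴴ * N z * K t.1 j, hM, fun z => posSemidef_sum _ fun j _ =>
      (hN z).conjTranspose_mul_mul_same _, fun e ω z z' => ?_⟩
    rw [Prot.blk, h, Matrix.mul_sum, ptr_sum, sum_kron, kron_sum, Matrix.sum_mul, ptr_sum]
    refine Finset.sum_congr rfl fun j _ => ?_
    rw [← Matrix.mul_assoc, conjTranspose_kronecker, conjTranspose_kronecker,
      conjTranspose_one, conjTranspose_one, ptr_comm, ← Matrix.mul_assoc, ← Matrix.mul_assoc]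
    simp only [← mul_kronecker_mul, Matrix.one_mul, Matrix.mul_one]

/-- The vector `ψ` as a matrix. -/
def mat {a b e : ℕ} (ψ : Fin a × Fin b × Fin e → ℂ) : Matrix (Fin a × Fin b) (Fin e) ℂ :=
  Matrix.of fun p x => ψ (p.1, p.2, x)

theorem ptr_pure {a b e : ℕ} (ψ : Fin a × Fin b × Fin e → ℂ) (M : Matrix (Fin a) (Fin a) ℂ)
    (N : Matrix (Fin b) (Fin b) ℂ) :
    ptr ((M ⊗ₖ (N ⊗ₖ (1 : Matrix (Fin e) (Fin e) ℂ))) * vecMulVec ψ (star ψ)) =
      ((mat ψ)ᴴ * (M ⊗ₖ N) * mat ψ)ᵀ := by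
  ext x x'
  rw [Matrix.mul_assoc]
  simp only [ptr, of_apply, mul_apply, Fintype.sum_prod_type, kroneckerMap_apply, one_apply,
    mul_ite, mul_one, mul_zero, ite_mul, zero_mul, Finset.sum_ite_eq,
    Finset.mem_univ, if_true, transpose_apply, conjTranspose_apply, mat, vecMulVec_apply,
    Pi.star_apply, Finset.mul_sum]
  exact Finset.sum_congr rfl fun _ _ => Finset.sum_congr rfl fun _ _ =>
    Finset.sum_congr rfl fun _ _ => Finset.sum_congr rfl fun _ _ => by ring

section BD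
variable {Z T E : Type} [Fintype Z] [DecidableEq Z] [Fintype T] [DecidableEq T] [Fintype E]
  [DecidableEq E]

/-- Block diagonal matrices. -/
def bd (U : Z → Z → T → Matrix E E ℂ) : Matrix (Z × Z × T × E) (Z × Z × T × E) ℂ :=
  Matrix.of fun u w => if u.1 = w.1 ∧ u.2.1 = w.2.1 ∧ u.2.2.1 = w.2.2.1 then
    U u.1 u.2.1 u.2.2.1 u.2.2.2 w.2.2.2 else 0

theorem bd_mul (U : Z → Z → T → Matrix E E ℂ) (X : Matrix (Z × Z × T × E) (Z × Z × T × E) ℂ)
    (u w : Z × Z × T × E) : (bd U * X) u w =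
      ∑ y, U u.1 u.2.1 u.2.2.1 u.2.2.2 y * X (u.1, u.2.1, u.2.2.1, y) w := by
  simp only [bd, mul_apply, of_apply, Fintype.sum_prod_type, ite_and, ite_mul, zero_mul,
    Finset.sum_ite_irrel, Finset.sum_const_zero, Finset.sum_ite_eq, Finset.mem_univ, if_true]

theorem bd_unitary {U : Z → Z → T → Matrix E E ℂ} (h : ∀ z z' t, (U z z' t)ᴴ * U z z' t = 1) :
    (bd U)ᴴ * bd U = 1 := by
  have e : (bd U)ᴴ = bd fun z z' t => (U z z' t)ᴴ := by
    ext ⟨z, z', t, x⟩ ⟨w, w', s, y⟩
    simp only [bd, conjTranspose_apply, of_apply]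
    by_cases hh : z = w ∧ z' = w' ∧ t = s
    · obtain ⟨rfl, rfl, rfl⟩ := hh
      simp
    · rw [if_neg hh, if_neg fun h => hh ⟨h.1.symm, h.2.1.symm, h.2.2.symm⟩, star_zero]
  ext ⟨z, z', t, x⟩ ⟨w, w', s, y⟩
  rw [e, bd_mul]
  simp only [bd, of_apply]
  by_cases hh : z = w ∧ z' = w' ∧ t = s
  · obtain ⟨rfl, rfl, rfl⟩ := hh
    have := congrFun (congrFun (h z z' t) x) y
    rw [mul_apply] at this
    simpa [one_apply] using this
  · simp only [if_neg hh, mul_zero, Finset.sum_const_zero]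
    rw [one_apply_ne]
    intro h
    simp only [Prod.mk.injEq] at h
    exact hh ⟨h.1, h.2.1, h.2.2.1⟩

theorem bd_trace (U : Z → Z → T → Matrix E E ℂ) (X : Matrix (Z × Z × T × E) (Z × Z × T × E) ℂ) :
    (bd U * X).trace = ∑ z, ∑ z', ∑ t,
      (U z z' t * Matrix.of fun x y => X (z, z', t, x) (z, z', t, y)).trace := by
  simp only [trace, diag_apply, bd_mul, Fintype.sum_prod_type]
  rfl

end BD

theorem test {l a b e : ℕ} (P : Prot l a b) (ψ : Fin a × Fin b × Fin e → ℂ)
    (σ : Matrix (P.Tr × Fin e) (P.Tr × Fin e) ℂ)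
    {U : Key l → Key l → P.Tr → Matrix (Fin e) (Fin e) ℂ}
    (h : ∀ z z' t, (U z z' t)ᴴ * U z z' t = 1) :
    (∑ z, ∑ z', ∑ t, (U z z' t * P.blk (vecMulVec ψ (star ψ)) t z z').trace -
      ((2 : ℂ) ^ l)⁻¹ * ∑ z, ∑ t, (U z z t * Matrix.of fun x y => σ (t, x) (t, y)).trace).re ≤
      traceNorm (P.final ψ - ideal l σ) := by
  refine le_trans (le_of_eq ?_) (holder _ _ (bd_unitary h))
  rw [Matrix.mul_sub, trace_sub, bd_trace, bd_trace, Finset.mul_sum]
  refine congrArg Complex.re (congrArg₂ _ ?_ ?_)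
  · simp only [Prot.final, of_apply, and_self, if_true]
    rfl
  · refine Finset.sum_congr rfl fun z _ => ?_
    rw [Finset.sum_eq_single z, Finset.mul_sum]
    · refine Finset.sum_congr rfl fun t _ => ?_
      rw [← smul_eq_mul, ← trace_smul, ← Matrix.mul_smul]
      congr 2
      ext x y
      simp [ideal, Matrix.sum_apply, single_apply]
    · intro z' _ hz
      refine Finset.sum_eq_zero fun t _ => ?_
      have : (Matrix.of fun x y => ideal l σ (z, z', t, x) (z, z', t, y)) = 0 := by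
        ext x y
        simp [ideal, Matrix.sum_apply, single_apply, hz]
      rw [this, Matrix.mul_zero, trace_zero]
    · simp

theorem coarse {Z A B E : Type} [Fintype Z] [Fintype A] [Fintype B] [Fintype E]
    (f : Z → Bool) (M : Z → Matrix A A ℂ) (N : Z → Matrix B B ℂ) (S : Matrix (A × B) E ℂ)
    (V : Bool → Bool → Matrix E E ℂ) :
    ∑ z, ∑ z', ((V (f z) (f z'))ᵀ * (Sᴴ * (M z ⊗ₖ N z') * S)ᵀ).trace =
      ∑ β, ∑ β', (V β β' * (Sᴴ * ((∑ z, if f z = β then M z else 0) ⊗ₖ
        ∑ z, if f z = β' then N z else 0) * S)).trace := by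
  simp only [sum_kron, kron_sum, Matrix.mul_sum, Matrix.sum_mul, trace_sum, Fintype.sum_bool,
    ← Finset.sum_add_distrib]
  rw [Finset.sum_comm]
  refine Finset.sum_congr rfl fun z' _ => Finset.sum_congr rfl fun z _ => ?_
  rw [← transpose_mul, trace_transpose, trace_mul_comm]
  cases f z <;> cases f z' <;> simp

theorem flip_sum {l : ℕ} (i : Fin l) (c : ℂ) : ∑ z : Key l, (if z i then -c else c) = 0 := by
  have inv : Function.Involutive fun z : Key l => Function.update z i (!z i) := fun z => by simp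
  have := Equiv.sum_comp inv.toPerm fun z : Key l => (if z i then -c else c)
  have e : ∑ z : Key l, (if (inv.toPerm _ z) i then -c else c) =
      -∑ z : Key l, (if z i then -c else c) := by
    rw [← Finset.sum_neg_distrib]
    refine Finset.sum_congr rfl fun z _ => ?_
    cases h : z i <;> simp [h]
  rw [e] at this
  linear_combination (-1 / 2 : ℂ) * this

theorem half {l a b e : ℕ} {ρ : Matrix (Fin a × Fin b) (Fin a × Fin b) ℂ} (h : Sq ρ)
    {ψ : Fin a × Fin b × Fin e → ℂ} (hψ : Purifies ψ ρ) (P : Prot l a b) (i : Fin l) {ε : ℝ}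
    (hε : P.HasError ψ ε) : 1 / 2 ≤ ε := by
  obtain ⟨σ, hσ, hle⟩ := hε
  choose M N hM hN hb using blk_form P
  have hS : mat ψ * (mat ψ)ᴴ = ρ := by
    ext p q
    rw [hψ]
    rfl
  have ps : ∀ {A : Type} [Fintype A] (M : Key l → Matrix A A ℂ) (β : Bool),
      (∀ z, (M z).PosSemidef) → (∑ z, if z i = β then M z else 0).PosSemidef := fun M β hM =>
    posSemidef_sum _ fun z _ => by
      split_ifs
      exacts [hM z, PosSemidef.zero]
  choose J hJ hk using fun t => key h hS (ps _ false (hM t)) (ps _ true (hM t))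
    (ps _ false (hN t)) (ps _ true (hN t))
  let G : P.Tr → Bool → Bool → Matrix (Fin e) (Fin e) ℂ := fun t β β' => (mat ψ)ᴴ *
    ((∑ z, if z i = β then M t z else 0) ⊗ₖ ∑ z, if z i = β' then N t z else 0) * mat ψ
  have hG : ∀ t β β', 0 ≤ (G t β β').trace.re := fun t β β' => (Complex.nonneg_iff.1
    (((ps _ β (hM t)).kronecker (ps _ β' (hN t))).conjTranspose_mul_mul_same _).trace_nonneg).1
  have tst : ∀ V : P.Tr → Bool → Bool → Matrix (Fin e) (Fin e) ℂ,
      (∀ t β β', (V t β β')ᴴ * V t β β' = 1) →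
      (∑ t, ∑ β, ∑ β', (V t β β' * G t β β').trace - ((2 : ℂ) ^ l)⁻¹ * ∑ z : Key l, ∑ t,
        ((V t (z i) (z i))ᵀ * Matrix.of fun x y => σ (t, x) (t, y)).trace).re ≤ ε := fun V hV => by
    refine le_trans (le_of_eq ?_) ((test P ψ σ (U := fun z z' t => (V t (z i) (z' i))ᵀ)
      fun z z' t => ?_).trans hle)
    · simp only [hb, ptr_pure, G, ← coarse (fun z : Key l => z i)]
      rw [Finset.sum_comm]
      simp only [Finset.sum_comm (γ := P.Tr)]
    · have := congrArg transpose (mul_eq_one_comm.1 (hV t (z i) (z' i)))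
      rw [transpose_mul, transpose_one] at this
      rw [← this]
      rfl
  have ta := tst (fun t β β' => if β = β' then (if β then -J t else J t) else 1) fun t β β' => by
    cases β <;> cases β' <;> simp [hJ]
  have tb := tst (fun t β β' => if β = β' then -1 else 1) fun t β β' => by
    cases β <;> cases β' <;> simp
  have e1 : ∑ z : Key l, ∑ t, ((if z i = z i then (if z i then -J t else J t) else 1)ᵀ *
      Matrix.of fun x y => σ (t, x) (t, y)).trace = 0 := by
    rw [← flip_sum i (∑ t, ((J t)ᵀ * Matrix.of fun x y => σ (t, x) (t, y)).trace)]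
    refine Finset.sum_congr rfl fun z _ => ?_
    cases z i <;> simp
  have e2 : ((2 : ℂ) ^ l)⁻¹ * ∑ z : Key l, ∑ t, ((if z i = z i then -1 else 1 :
      Matrix (Fin e) (Fin e) ℂ)ᵀ * Matrix.of fun x y => σ (t, x) (t, y)).trace = -1 := by
    have := hσ.2
    rw [trace, Fintype.sum_prod_type] at this
    have e : ∑ t, (Matrix.of fun x y => σ (t, x) (t, y)).trace = 1 := this
    simp only [if_true, transpose_neg, transpose_one, Matrix.neg_mul, Matrix.one_mul, trace_neg,
      Finset.sum_neg_distrib, e]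
    simp
  rw [e1] at ta
  rw [e2] at tb
  simp only [Fintype.sum_bool, if_true, Bool.true_eq_false, Bool.false_eq_true, if_false,
    Matrix.one_mul, Matrix.neg_mul, trace_neg, mul_zero, sub_zero, Complex.re_sum, Complex.add_re,
    Complex.neg_re, Complex.sub_re, Complex.one_re] at ta tb
  have : (0 : ℝ) ≤ ∑ t, (-(J t * G t true true).trace.re + (G t true false).trace.re +
      ((G t false true).trace.re + (J t * G t false false).trace.re)) + ∑ t,
      (-(G t true true).trace.re + (G t true false).trace.re + ((G t false true).trace.re +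
        -(G t false false).trace.re)) := by
    rw [← Finset.sum_add_distrib]
    refine Finset.sum_nonneg fun t _ => ?_
    have := hk t
    rw [Matrix.mul_sub, trace_sub, Complex.sub_re] at this
    linarith [hG t true false, hG t false true]
  linarith

theorem keyRate_zero {a b e : ℕ} {ρ : Matrix (Fin a × Fin b) (Fin a × Fin b) ℂ} (h : Sq ρ)
    {ψ : Fin a × Fin b × Fin e → ℂ} (hψ : Purifies ψ ρ) : keyRate ψ = 0 := by
  simp only [keyRate, ENNReal.iSup_eq_zero]
  intro l P ε hP hε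
  have hn : ∀ᶠ n in atTop, (l n : ℝ≥0∞) / n = 0 := by
    filter_upwards [hε.eventually (gt_mem_nhds (by norm_num : (0 : ℝ) < 1 / 2))] with n hn
    rcases Nat.eq_zero_or_pos (l n) with h0 | h0
    · simp [h0]
    · refine absurd (half ((h.pow (Fin n)).comap finFunctionFinEquiv.symm finFunctionFinEquiv.symm)
        (fun p q => ?_) (P n) ⟨0, h0⟩ (hP n)) (not_le.2 hn)
      simp only [of_apply, copies, hψ _ _, star_prod, ← Finset.prod_mul_distrib]
      rw [Fintype.prod_sum]
      exact (Equiv.sum_comp finFunctionFinEquiv.symm _).symm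
  rw [liminf_congr hn, liminf_const]

end Vale.Agent.P372
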