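import Vale.Agent.P372.Lin

set_option linter.unusedSectionVars false

open Matrix
open scoped ComplexOrder MatrixOrder Kronecker

namespace Vale.Agent.P372
open Vale.Agent.P358

theorem strip {I : Type} [Fintype I] (c : I → ℂ) (ν : I → ℝ) (C : ℝ)
    (h : ∀ z : ℂ, z.re = -(1 / 2) ∨ z.re = 1 / 2 → ‖∑ i, c i * Complex.exp (z * ν i)‖ ≤ C) :
    ‖∑ i, c i‖ ≤ C := by
  have := PhragmenLindelof.vertical_strip (f := fun z => ∑ i, c i * Complex.exp (z * ν i))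
    (a := -(1 / 2)) (b := 1 / 2) (z := 0) (C := C) ?_ ?_ (fun z hz => h z (Or.inl hz))
    (fun z hz => h z (Or.inr hz)) (by simp) (by simp)
  · simpa using this
  · exact Differentiable.diffContOnCl (by fun_prop)
  · refine ⟨0, by have := Real.pi_pos; positivity, 0, ?_⟩
    refine Asymptotics.IsBigO.of_bound (∑ i, ‖c i‖ * Real.exp |ν i|) ?_
    refine Filter.eventually_inf_principal.2 (Filter.Eventually.of_forall fun z hz => ?_)
    simp only [zero_mul, Real.exp_zero, norm_one, mul_one]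
    refine (norm_sum_le _ _).trans (Finset.sum_le_sum fun i _ => ?_)
    rw [norm_mul, Complex.norm_exp]
    refine mul_le_mul_of_nonneg_left (Real.exp_le_exp.2 ?_) (norm_nonneg _)
    simp only [Complex.mul_re, Complex.ofReal_re, Complex.ofReal_im, mul_zero, sub_zero]
    obtain ⟨h1, h2⟩ := hz
    have h3 : |z.re| ≤ 1 := abs_le.2 ⟨by linarith, by linarith⟩
    calc z.re * ν i ≤ |z.re * ν i| := le_abs_self _
      _ = |z.re| * |ν i| := abs_mul _ _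
      _ ≤ |ν i| := mul_le_of_le_one_left (abs_nonneg _) h3

variable {C D : Type} [Fintype C] [DecidableEq C] [Fintype D] [DecidableEq D]

theorem qf_scale (d : C → ℝ) (b : Matrix D D ℂ) (w : C → ℂ) (v : C × D → ℂ) :
    qf (dg d ⊗ₖ b) (fun p => w p.1 * v p) = qf (dg (fun c => d c * ‖w c‖ ^ 2) ⊗ₖ b) v := by
  unfold qf
  congr 1
  simp only [dotProduct, mulVec, Finset.mul_sum, kroneckerMap_apply, Pi.star_apply]
  refine Finset.sum_congr rfl fun p _ => Finset.sum_congr rfl fun q _ => ?_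
  by_cases hpq : p.1 = q.1
  · have e : ((‖w q.1‖ ^ 2 : ℝ) : ℂ) = star (w q.1) * w q.1 := by
      rw [mul_comm, Complex.star_def, Complex.mul_conj, Complex.normSq_eq_norm_sq]
    simp only [dg, hpq, diagonal_apply_eq, star_mul', Complex.ofReal_mul, e]
    ring
  · simp [dg, diagonal_apply_ne _ hpq]

theorem swap_diag {Y : Matrix (C × D) (C × D) ℂ} (hY : Yᵀ = Y) (μ : C → ℝ) (b0 b1 : Matrix D D ℂ)
    (h : ∀ ξ η, 2 * ‖ξ ⬝ᵥ Y *ᵥ η‖ ≤ qf (dg (fun c => Real.exp (μ c)) ⊗ₖ b0) (star ξ) +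
      qf (dg (fun _ => 1) ⊗ₖ b1) η) (u : C × D → ℂ) :
    2 * ‖u ⬝ᵥ Y *ᵥ u‖ ≤ qf (dg (fun _ => 1) ⊗ₖ b0) (star u) +
      qf (dg (fun c => Real.exp (μ c)) ⊗ₖ b1) u := by
  set K := qf (dg (fun _ => 1) ⊗ₖ b0) (star u) + qf (dg (fun c => Real.exp (μ c)) ⊗ₖ b1) u
  let F : ℂ → ℂ := fun z => (fun p => Complex.exp (z * μ p.1) * u p) ⬝ᵥ Y *ᵥ
    fun p => Complex.exp (-z * μ p.1) * u p
  have hF : ∀ z, F z = ∑ i : (C × D) × (C × D), (u i.1 * (Y i.1 i.2 * u i.2)) *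
      Complex.exp (z * ((μ i.1.1 - μ i.2.1 : ℝ) : ℂ)) := fun z => by
    simp only [F, dotProduct, mulVec, Finset.mul_sum, Fintype.sum_prod_type (α₁ := C × D)]
    refine Finset.sum_congr rfl fun p _ => Finset.sum_congr rfl fun q _ => ?_
    rw [Complex.ofReal_sub, mul_sub, sub_eq_add_neg, Complex.exp_add, neg_mul]
    ring
  have hsym : ∀ z, F (-z) = F z := fun z => by
    simp only [F, neg_neg]
    rw [dotProduct_mulVec, ← mulVec_transpose, hY, dotProduct_comm]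
  have hl : ∀ z : ℂ, z.re = -(1 / 2) → ‖F z‖ ≤ K / 2 := fun z hz => by
    have h1 := h (fun p => Complex.exp (z * μ p.1) * u p) fun p => Complex.exp (-z * μ p.1) * u p
    have e1 : (star fun p : C × D => Complex.exp (z * μ p.1) * u p) =
        fun p => star (Complex.exp (z * μ p.1)) * star u p := by
      funext p
      simp
    rw [e1, qf_scale _ _ (fun c => star (Complex.exp (z * μ c))),
      qf_scale _ _ (fun c => Complex.exp (-z * μ c))] at h1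
    have e2 : (fun c => Real.exp (μ c) * ‖star (Complex.exp (z * μ c))‖ ^ 2) = fun _ => (1 : ℝ) := by
      funext c
      rw [norm_star, Complex.norm_exp, ← Real.exp_nat_mul, ← Real.exp_add]
      simp [hz]
    have e3 : (fun c => 1 * ‖Complex.exp (-z * μ c)‖ ^ 2) = fun c => Real.exp (μ c) := by
      funext c
      rw [Complex.norm_exp, ← Real.exp_nat_mul]
      simp [hz]
    rw [e2, e3] at h1
    simp only [F, K]
    linarith
  have := strip (fun i : (C × D) × (C × D) => u i.1 * (Y i.1 i.2 * u i.2))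
    (fun i => μ i.1.1 - μ i.2.1) (K / 2) fun z hz => by
      rw [← hF]
      rcases hz with hz | hz
      · exact hl z hz
      · rw [← hsym]
        exact hl _ (by simp [hz])
  simp only [Fintype.sum_prod_type (α₁ := C × D)] at this
  simp only [dotProduct, mulVec, Finset.mul_sum]
  linarith

theorem simul {a0 a1 : Matrix C C ℂ} (h0 : a0.PosDef) (h1 : a1.PosDef) :
    ∃ (h g : Matrix C C ℂ) (μ : C → ℝ), h * g = 1 ∧ a1 = hᴴ * dg (fun _ => 1) * h ∧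
      a0 = hᴴ * dg (fun c => Real.exp (μ c)) * h := by
  obtain ⟨r, hr, e⟩ := CStarAlgebra.isStrictlyPositive_iff_eq_star_mul_self.1 h1.isStrictlyPositive
  obtain ⟨s, hs⟩ := hr.exists_right_inv
  have hs' : s * r = 1 := mul_eq_one_comm.1 hs
  have inj : ∀ {A B : Matrix C C ℂ}, B * A = 1 → Function.Injective A.mulVec := fun {A B} hA x y hxy => by
    have := congrArg (B *ᵥ ·) hxy
    simpa [mulVec_mulVec, hA] using this
  have h2 := h0.conjTranspose_mul_mul_same (inj hs)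
  obtain ⟨V, d, v1, v2, v3⟩ := spec h2.1
  have h3 := h2.conjTranspose_mul_mul_same (inj v1)
  have e3 : Vᴴ * (sᴴ * a0 * s) * V = dg d := by
    rw [v3]
    calc Vᴴ * (V * dg d * Vᴴ) * V = (Vᴴ * V) * dg d * (Vᴴ * V) := by simp only [Matrix.mul_assoc]
      _ = dg d := by rw [v1, Matrix.one_mul, Matrix.mul_one]
  have hd : ∀ i, 0 < d i := fun i => by
    have := (e3 ▸ h3).diag_pos (i := i)
    simpa [dg] using this
  refine ⟨Vᴴ * r, s * V, fun c => Real.log (d c), ?_, ?_, ?_⟩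
  · rw [Matrix.mul_assoc, ← Matrix.mul_assoc r, hs, Matrix.one_mul, v1]
  · rw [dg_const, Complex.ofReal_one, one_smul, Matrix.mul_one, conjTranspose_mul,
      conjTranspose_conjTranspose, Matrix.mul_assoc, ← Matrix.mul_assoc V, v2, Matrix.one_mul, e,
      star_eq_conjTranspose]
  · simp only [Real.exp_log (hd _)]
    calc a0 = (s * r)ᴴ * a0 * (s * r) := by simp [hs']
      _ = rᴴ * (sᴴ * a0 * s) * r := by simp only [conjTranspose_mul, Matrix.mul_assoc]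
      _ = _ := by
        rw [v3]
        simp only [conjTranspose_mul, conjTranspose_conjTranspose, Matrix.mul_assoc]

theorem qf_conj {P Q : Type} [Fintype P] [Fintype Q] [DecidableEq P] [DecidableEq Q]
    (H : Matrix P P ℂ) (G : Matrix P Q ℂ) (v : Q → ℂ) : qf H (G *ᵥ v) = qf (Gᴴ * H * G) v := by
  rw [qf, qf, star_mulVec, ← dotProduct_mulVec, mulVec_mulVec, mulVec_mulVec]

theorem swap_pd {Y : Matrix (C × D) (C × D) ℂ} (hY : Yᵀ = Y) {a0 a1 : Matrix C C ℂ}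
    (h0 : a0.PosDef) (h1 : a1.PosDef) (s0 : a0ᵀ = a0) (s1 : a1ᵀ = a1) (b0 b1 : Matrix D D ℂ)
    (h : ∀ ξ η, 2 * ‖star ξ ⬝ᵥ Y *ᵥ η‖ ≤ qf (a0 ⊗ₖ b0) ξ + qf (a1 ⊗ₖ b1) η) {ε : C × D → ℂ}
    (hε : star ε = ε) : 2 * ‖ε ⬝ᵥ Y *ᵥ ε‖ ≤ qf (a1 ⊗ₖ b0) ε + qf (a0 ⊗ₖ b1) ε := by
  obtain ⟨k, g, μ, hg, e1, e0⟩ := simul h0 h1
  have hg' : g * k = 1 := mul_eq_one_comm.1 hg
  have t1 : ∀ d : C → ℝ, (kᴴ * dg d * k)ᵀ = (kᴴᵀ)ᴴ * dg d * kᴴᵀ := fun d => by
    simp only [transpose_mul, dg, diagonal_transpose, Matrix.mul_assoc]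
    congr 1
    ext i j
    simp
  have c1 : ∀ (k g : Matrix C C ℂ) (d : C → ℝ) (b : Matrix D D ℂ), k * g = 1 →
      (g ⊗ₖ (1 : Matrix D D ℂ))ᴴ * ((kᴴ * dg d * k) ⊗ₖ b) * (g ⊗ₖ (1 : Matrix D D ℂ)) =
        dg d ⊗ₖ b := fun k g d b hg => by
    rw [conjTranspose_kronecker, ← mul_kronecker_mul, ← mul_kronecker_mul]
    congr 1
    · calc gᴴ * (kᴴ * dg d * k) * g = (k * g)ᴴ * dg d * (k * g) := by
            simp only [conjTranspose_mul, Matrix.mul_assoc]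
        _ = dg d := by simp [hg]
    · simp
  have c2 : ∀ (k : Matrix C C ℂ) (d : C → ℝ) (b : Matrix D D ℂ),
      (k ⊗ₖ (1 : Matrix D D ℂ))ᴴ * (dg d ⊗ₖ b) * (k ⊗ₖ (1 : Matrix D D ℂ)) =
        (kᴴ * dg d * k) ⊗ₖ b := fun k d b => by
    rw [conjTranspose_kronecker, ← mul_kronecker_mul, ← mul_kronecker_mul]
    simp
  have st : ∀ (g : Matrix C C ℂ) (v : C × D → ℂ), star ((g ⊗ₖ (1 : Matrix D D ℂ)) *ᵥ v) =
      (gᴴᵀ ⊗ₖ (1 : Matrix D D ℂ)) *ᵥ star v := fun g v => by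
    rw [star_mulVec, ← mulVec_transpose, conjTranspose_kronecker, ← kroneckerMap_transpose]
    simp
  have hgT : kᴴᵀ * gᴴᵀ = 1 := by
    rw [← transpose_mul, ← conjTranspose_mul, hg]
    simp
  have dot : ∀ ξ η, ξ ⬝ᵥ ((g ⊗ₖ (1 : Matrix D D ℂ))ᵀ * Y * (g ⊗ₖ (1 : Matrix D D ℂ))) *ᵥ η =
      ((g ⊗ₖ (1 : Matrix D D ℂ)) *ᵥ ξ) ⬝ᵥ Y *ᵥ ((g ⊗ₖ (1 : Matrix D D ℂ)) *ᵥ η) := fun ξ η => by
    rw [← mulVec_mulVec, ← mulVec_mulVec, dotProduct_mulVec, vecMul_transpose]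
  have key := swap_diag (Y := (g ⊗ₖ (1 : Matrix D D ℂ))ᵀ * Y * (g ⊗ₖ (1 : Matrix D D ℂ)))
    (by simp only [transpose_mul, transpose_transpose, hY, Matrix.mul_assoc]) μ b0 b1
    (fun ξ η => by
      have := h (star ((g ⊗ₖ (1 : Matrix D D ℂ)) *ᵥ ξ)) ((g ⊗ₖ (1 : Matrix D D ℂ)) *ᵥ η)
      rw [star_star, st, qf_conj, qf_conj, ← s0, e0, e1, t1, c1 _ _ _ _ hgT, c1 _ _ _ _ hg] at this
      rwa [dot]) ((k ⊗ₖ (1 : Matrix D D ℂ)) *ᵥ ε)
  rw [dot, mulVec_mulVec, ← mul_kronecker_mul, hg', Matrix.mul_one, one_kronecker_one, one_mulVec,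
    st, hε, qf_conj, qf_conj, c2, c2, ← t1, ← e0, ← e1, s1] at key
  exact key

theorem qf_add {P : Type} [Fintype P] [DecidableEq P] (A B : Matrix P P ℂ) (v : P → ℂ) :
    qf (A + B) v = qf A v + qf B v := by
  simp [qf, add_mulVec]

theorem swap {Y : Matrix (C × D) (C × D) ℂ} (hY : Yᵀ = Y) {a0 a1 : Matrix C C ℂ}
    {b0 b1 : Matrix D D ℂ} (h0 : a0.PosSemidef) (h1 : a1.PosSemidef) (s0 : a0ᵀ = a0)
    (s1 : a1ᵀ = a1) (g0 : b0.PosSemidef) (g1 : b1.PosSemidef)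
    (h : ∀ ξ η, 2 * ‖star ξ ⬝ᵥ Y *ᵥ η‖ ≤ qf (a0 ⊗ₖ b0) ξ + qf (a1 ⊗ₖ b1) η) {ε : C × D → ℂ}
    (hε : star ε = ε) : 2 * ‖ε ⬝ᵥ Y *ᵥ ε‖ ≤ qf (a1 ⊗ₖ b0) ε + qf (a0 ⊗ₖ b1) ε := by
  set K := qf ((1 : Matrix C C ℂ) ⊗ₖ b0) ε + qf ((1 : Matrix C C ℂ) ⊗ₖ b1) ε with hK
  have one : (1 : Matrix C C ℂ).PosSemidef := PosSemidef.one
  have hK0 : 0 ≤ K := add_nonneg (qf_nonneg (one.kronecker g0) _) (qf_nonneg (one.kronecker g1) _)
  have ex : ∀ (δ : ℝ) (a : Matrix C C ℂ) (b : Matrix D D ℂ) (v : C × D → ℂ),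
      qf ((a + (δ : ℂ) • 1) ⊗ₖ b) v = qf (a ⊗ₖ b) v + δ * qf ((1 : Matrix C C ℂ) ⊗ₖ b) v := by
    intro δ a b v
    rw [add_kronecker, qf_add, smul_kronecker]
    simp [qf, smul_mulVec]
  refine le_of_forall_pos_le_add fun η hη => ?_
  have hδ : 0 < η / (K + 1) := by positivity
  have pd : ((η / (K + 1) : ℝ) : ℂ) • (1 : Matrix C C ℂ) |>.PosDef :=
    PosDef.one.smul (by exact_mod_cast hδ)
  have := swap_pd hY (PosDef.posSemidef_add h0 pd) (PosDef.posSemidef_add h1 pd)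
    (by simp [s0]) (by simp [s1]) b0 b1 (fun ξ ζ => by
      rw [ex, ex]
      nlinarith [h ξ ζ, mul_nonneg hδ.le (qf_nonneg (one.kronecker g0) ξ),
        mul_nonneg hδ.le (qf_nonneg (one.kronecker g1) ζ)]) hε
  rw [ex, ex] at this
  have h2 : η / (K + 1) * K ≤ η := by
    rw [div_mul_eq_mul_div, div_le_iff₀ (by positivity)]
    nlinarith
  rw [hK, mul_add] at h2
  linarith

end Vale.Agent.P372
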